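import Vale.Agent.P183.R2.H536.Prod

/-!
# P183: the subgroups between `SL` of a subring and `SL` of a finite commutative ring
-/

set_option autoImplicit false

namespace Vale.Agent.P183.H536

open Matrix

variable {ι : Type*} [Fintype ι] [DecidableEq ι] {R : Type*} [CommRing R]

/-- the elements `c` such that all transvections with entry `c` lie in `L` form a subring -/
def ringOf (L : Subgroup (Matrix.SpecialLinearGroup ι R)) (h1 : Lin L 1)
    (h3 : 3 ≤ Fintype.card ι) : Subring R where
  carrier := {c | Lin L c}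
  mul_mem' := fun ha hb => ha.mul hb h3
  one_mem' := h1
  add_mem' := by
    intro a b ha hb i j hij
    rw [Matrix.SpecialLinearGroup.transvection_add]
    exact L.mul_mem (ha i j hij) (hb i j hij)
  zero_mem' := by
    intro i j hij
    rw [Matrix.SpecialLinearGroup.transvection_coeff_zero]
    exact L.one_mem
  neg_mem' := by
    intro a ha i j hij
    rw [← Matrix.SpecialLinearGroup.transvection_inv]
    exact L.inv_mem (ha i j hij)

theorem mem_ringOf {L : Subgroup (Matrix.SpecialLinearGroup ι R)} {h1 : Lin L 1}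
    {h3 : 3 ≤ Fintype.card ι} {c : R} : c ∈ ringOf L h1 h3 ↔ Lin L c := Iff.rfl

section

variable [Finite R] {L : Subgroup (Matrix.SpecialLinearGroup ι R)} (S : Subring R)
    (hS : ∀ M : Matrix.SpecialLinearGroup ι R, (∀ i j, (M : Matrix ι ι R) i j ∈ S) → M ∈ L)
    (hcard : Nat.card R + 2 ≤ Fintype.card ι) (h5 : 5 ≤ Fintype.card ι)

include hS hcard h5

theorem conj_prod (g : Matrix.SpecialLinearGroup ι R) (hg : g ∈ L) (a b : ι → R)
    (hab : b ⬝ᵥ a = 0) (ha : ∀ k, a k ∈ S) (hb : ∀ k, b k ∈ S) (l m : ι) :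
    Lin L (((g : Matrix ι ι R) *ᵥ a) l *
      (b ᵥ* ((g⁻¹ : Matrix.SpecialLinearGroup ι R) : Matrix ι ι R)) m) := by
  have h1 : (b ᵥ* ((g⁻¹ : Matrix.SpecialLinearGroup ι R) : Matrix ι ι R)) ⬝ᵥ
      ((g : Matrix ι ι R) *ᵥ a) = 0 := by
    rw [← Matrix.dotProduct_mulVec, Matrix.mulVec_mulVec, ← Matrix.SpecialLinearGroup.coe_mul,
      inv_mul_cancel, Matrix.SpecialLinearGroup.coe_one, Matrix.one_mulVec, hab]
  have ht : tv a b hab ∈ L := by
    apply hS
    intro i j
    rw [tv_apply]
    apply S.add_mem _ (S.mul_mem (ha i) (hb j))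
    split_ifs
    · exact S.one_mem
    · exact S.zero_mem
  have h2 := conj_tv g a b hab _ _ h1 rfl rfl
  have h3 : tv _ _ h1 ∈ L := by
    rw [← h2]
    exact L.mul_mem (L.mul_mem hg ht) (L.inv_mem hg)
  have h4 := iso S hS hcard h5 _ _ h1 h3 m l
  rwa [mul_comm] at h4

theorem lin_one : Lin L 1 := by
  intro i j hij
  apply hS
  intro k l
  rw [Matrix.SpecialLinearGroup.transvection_coe, Matrix.add_apply, Matrix.one_apply,
    Matrix.single_apply]
  split_ifs <;> simp [S.one_mem, S.zero_mem, add_mem]

/-- all products of an entry of `g` and an entry of its inverse -/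
theorem prod_all (hdvd : Nat.card R ∣ Fintype.card ι - 1)
    (g : Matrix.SpecialLinearGroup ι R) (hg : g ∈ L) (i l j m : ι) :
    Lin L ((g : Matrix ι ι R) i l *
      ((g⁻¹ : Matrix.SpecialLinearGroup ι R) : Matrix ι ι R) j m) := by
  classical
  have h1 : Lin L 1 := lin_one S hS hcard h5
  set P := ringOf L h1 (by omega) with hP
  set h := ((g⁻¹ : Matrix.SpecialLinearGroup ι R) : Matrix ι ι R) with hh
  have hsS : ∀ k k' : ι, (Pi.single k (1 : R) : ι → R) k' ∈ S := by
    intro k k'
    rw [Pi.single_apply]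
    split_ifs
    · exact S.one_mem
    · exact S.zero_mem
  -- different indices
  have off : ∀ i l j m : ι, l ≠ j → (g : Matrix ι ι R) i l * h j m ∈ P := by
    intro i l j m hlj
    have hab : (Pi.single j (1 : R) : ι → R) ⬝ᵥ (Pi.single l (1 : R) : ι → R) = 0 := by
      rw [single_dotProduct, one_mul, Pi.single_eq_of_ne hlj.symm]
    have := conj_prod S hS hcard h5 g hg _ _ hab (hsS l) (hsS j) i m
    rw [Matrix.mulVec_single_one, Matrix.single_one_vecMul] at this
    exact this
  -- equal indices
  have diag : ∀ i l k m : ι, l ≠ k →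
      (g : Matrix ι ι R) i l * h l m - (g : Matrix ι ι R) i k * h k m ∈ P := by
    intro i l k m hlk
    have hab : ((Pi.single l (1 : R) : ι → R) + Pi.single k (1 : R)) ⬝ᵥ
        ((Pi.single l (1 : R) : ι → R) - Pi.single k (1 : R)) = 0 := by
      rw [add_dotProduct, dotProduct_sub, dotProduct_sub, single_dotProduct, single_dotProduct,
        single_dotProduct, single_dotProduct, Pi.single_eq_same, Pi.single_eq_same,
        Pi.single_eq_of_ne hlk, Pi.single_eq_of_ne hlk.symm]
      ring
    have := conj_prod S hS hcard h5 g hg _ _ hab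
      (fun k' => by rw [Pi.sub_apply]; exact S.sub_mem (hsS _ _) (hsS _ _))
      (fun k' => by rw [Pi.add_apply]; exact S.add_mem (hsS _ _) (hsS _ _)) i m
    rw [Matrix.mulVec_sub, Matrix.add_vecMul, Matrix.mulVec_single_one, Matrix.mulVec_single_one,
      Matrix.single_one_vecMul, Matrix.single_one_vecMul] at this
    change ((g : Matrix ι ι R) i l - (g : Matrix ι ι R) i k) * (h l m + h k m) ∈ P at this
    have e : (g : Matrix ι ι R) i l * h l m - (g : Matrix ι ι R) i k * h k m =
        ((g : Matrix ι ι R) i l - (g : Matrix ι ι R) i k) * (h l m + h k m) -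
          (g : Matrix ι ι R) i l * h k m + (g : Matrix ι ι R) i k * h l m := by ring
    rw [e]
    exact P.add_mem (P.sub_mem this (off i l k m hlk)) (off i k l m hlk.symm)
  by_cases hlj : l = j
  · subst hlj
    change (g : Matrix ι ι R) i l * h l m ∈ P
    have hsum : ∑ k, ((g : Matrix ι ι R) i l * h l m - (g : Matrix ι ι R) i k * h k m) ∈ P := by
      apply P.sum_mem
      intro k _
      by_cases hlk : l = k
      · subst hlk; rw [sub_self]; exact P.zero_mem
      · exact diag i l k m hlk
    rw [Finset.sum_sub_distrib, Finset.sum_const, Finset.card_univ] at hsum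
    have h2 : ∑ k, (g : Matrix ι ι R) i k * h k m ∈ P := by
      rw [← Matrix.mul_apply, hh, ← Matrix.SpecialLinearGroup.coe_mul, mul_inv_cancel,
        Matrix.SpecialLinearGroup.coe_one, Matrix.one_apply]
      split_ifs
      · exact P.one_mem
      · exact P.zero_mem
    have h3 := P.add_mem hsum h2
    rw [sub_add_cancel] at h3
    obtain ⟨d, hd⟩ := hdvd
    have h4 : Fintype.card ι = Nat.card R * d + 1 := by omega
    rw [h4, add_nsmul, mul_nsmul, card_nsmul_eq_zero', nsmul_zero, zero_add, one_nsmul] at h3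
    exact h3
  · exact off i l j m hlj

/-- the entries of the elements of `L` lie in the ring of `L` -/
theorem entries_mem_ringOf (k : ℕ)
    (hk : Fintype.card ι = (2 ^ Nat.card R).factorial * k + 1)
    (g : Matrix.SpecialLinearGroup ι R) (hg : g ∈ L) (i j : ι) :
    Lin L ((g : Matrix ι ι R) i j) := by
  have h1 : Lin L 1 := lin_one S hS hcard h5
  have hdvd : Nat.card R ∣ Fintype.card ι - 1 := by
    rw [hk, Nat.add_sub_cancel]
    apply Dvd.dvd.mul_right
    apply Nat.dvd_factorial Nat.card_pos
    exact Nat.lt_two_pow_self.le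
  exact entries_mem (ringOf L h1 (by omega)) g
    (fun i l j m => prod_all S hS hcard h5 hdvd g hg i l j m) k hk i j

end

/-- the matrices of determinant one with entries in a subring -/
def slOf (ι : Type*) [Fintype ι] [DecidableEq ι] {R : Type*} [CommRing R] (P : Subring R) :
    Subgroup (Matrix.SpecialLinearGroup ι R) :=
  (Matrix.SpecialLinearGroup.map (n := ι) P.subtype).range

theorem mem_slOf {P : Subring R} {g : Matrix.SpecialLinearGroup ι R} :
    g ∈ slOf ι P ↔ ∀ i j, (g : Matrix ι ι R) i j ∈ P := by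
  constructor
  · rintro ⟨x, rfl⟩ i j
    exact ((x : Matrix ι ι P) i j).2
  · intro hg
    let M' : Matrix ι ι P := Matrix.of fun i j => ⟨(g : Matrix ι ι R) i j, hg i j⟩
    have hmap : (P.subtype).mapMatrix M' = (g : Matrix ι ι R) := by
      ext i j
      rfl
    have hdet : M'.det = 1 := by
      apply Subtype.ext
      have h2 := RingHom.map_det P.subtype M'
      rw [hmap, g.det_coe] at h2
      exact h2
    refine ⟨⟨M', hdet⟩, ?_⟩
    apply Subtype.ext
    exact hmap

theorem slOf_mono {P Q : Subring R} (h : P ≤ Q) : slOf ι P ≤ slOf ι Q := by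
  intro g hg
  rw [mem_slOf] at hg ⊢
  exact fun i j => h (hg i j)

theorem transvection_mem_slOf {P : Subring R} {i j : ι} (h : i ≠ j) {c : R} (hc : c ∈ P) :
    Matrix.SpecialLinearGroup.transvection h c ∈ slOf ι P := by
  rw [mem_slOf]
  intro k l
  rw [Matrix.SpecialLinearGroup.transvection_coe, Matrix.add_apply, Matrix.one_apply,
    Matrix.single_apply]
  split_ifs <;> simp [P.one_mem, P.zero_mem, add_mem, hc]

theorem mem_of_transvection_mem_slOf {P : Subring R} {i j : ι} (h : i ≠ j) {c : R}
    (hc : Matrix.SpecialLinearGroup.transvection h c ∈ slOf ι P) : c ∈ P := by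
  rw [mem_slOf] at hc
  have := hc i j
  rw [Matrix.SpecialLinearGroup.transvection_coe, Matrix.add_apply, Matrix.one_apply_ne h,
    Matrix.single_apply, if_pos ⟨rfl, rfl⟩, zero_add] at this
  exact this

theorem slOf_le_iff {P Q : Subring R} (h2 : ∃ i j : ι, i ≠ j) :
    slOf ι P ≤ slOf ι Q ↔ P ≤ Q := by
  constructor
  · intro h c hc
    obtain ⟨i, j, hij⟩ := h2
    exact mem_of_transvection_mem_slOf hij (h (transvection_mem_slOf hij hc))
  · exact slOf_mono

/-- every subgroup above `SL` of a subring is `SL` of a subring -/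
theorem exists_eq_slOf [Finite R] (S : Subring R) (k : ℕ)
    (hk : Fintype.card ι = (2 ^ Nat.card R).factorial * k + 1)
    (hcard : Nat.card R + 2 ≤ Fintype.card ι) (h5 : 5 ≤ Fintype.card ι)
    (L : Subgroup (Matrix.SpecialLinearGroup ι R)) (hL : slOf ι S ≤ L) :
    ∃ P : Subring R, S ≤ P ∧ L = slOf ι P := by
  have hS : ∀ M : Matrix.SpecialLinearGroup ι R, (∀ i j, (M : Matrix ι ι R) i j ∈ S) → M ∈ L :=
    fun M hM => hL (mem_slOf.2 hM)
  have h1 : Lin L 1 := lin_one S hS hcard h5
  refine ⟨ringOf L h1 (by omega), ?_, ?_⟩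
  · intro c hc i j hij
    exact hL (transvection_mem_slOf hij hc)
  · apply le_antisymm
    · intro g hg
      rw [mem_slOf]
      intro i j
      exact entries_mem_ringOf S hS hcard h5 k hk g hg i j
    · intro g hg
      exact mem_of_entries_mem (ringOf L h1 (by omega)) L (fun i j h a ha => ha i j h) g
        (mem_slOf.1 hg)

end Vale.Agent.P183.H536
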