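import Mathlib

/-!
# P183: entries of a matrix of determinant one whose products with the entries of the inverse lie in
a subring
-/

set_option autoImplicit false

namespace Vale.Agent.P183.H536

open Matrix

variable {ι : Type*} [Fintype ι] [DecidableEq ι] {R : Type*} [CommRing R]

omit [Fintype ι] in
/-- a product over a finite set of elements of a submodule -/
theorem prod_mem_pow {P : Subring R} (C : Submodule P R) (s : Finset ι) (f : ι → R)
    (hf : ∀ k ∈ s, f k ∈ C) : ∏ k ∈ s, f k ∈ C ^ s.card := by
  classical
  induction s using Finset.induction_on with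
  | empty => simp [Submodule.one_le.1 le_rfl]
  | insert k s hk ih =>
    rw [Finset.prod_insert hk, Finset.card_insert_of_notMem hk, pow_succ']
    exact Submodule.mul_mem_mul (hf k (Finset.mem_insert_self _ _))
      (ih fun k hk => hf k (Finset.mem_insert_of_mem hk))

theorem det_mem_pow {P : Subring R} (C : Submodule P R) (A : Matrix ι ι R)
    (hA : ∀ i j, A i j ∈ C) : A.det ∈ C ^ Fintype.card ι := by
  rw [Matrix.det_apply]
  apply Submodule.sum_mem
  intro σ _
  have h1 : ∏ i, A (σ i) i ∈ C ^ Fintype.card ι := prod_mem_pow C Finset.univ _ fun k _ => hA _ _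
  rcases Int.units_eq_one_or (Equiv.Perm.sign σ) with h | h
  · rw [h, one_smul]; exact h1
  · rw [h, Units.neg_smul, one_smul]; exact Submodule.neg_mem _ h1

theorem card_units_dvd [Finite R] (P : Subring R) :
    Nat.card (Submodule P R)ˣ ∣ (2 ^ Nat.card R).factorial := by
  classical
  have hfin : Finite (Submodule P R) :=
    Finite.of_injective (fun C => (C : Set R)) SetLike.coe_injective
  have hfin2 : Finite (Submodule P R)ˣ := Finite.of_injective _ Units.val_injective
  apply Nat.dvd_factorial Nat.card_pos
  have h1 : Nat.card (Submodule P R)ˣ ≤ Nat.card (Set R) :=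
    Nat.card_le_card_of_injective (fun C : (Submodule P R)ˣ => ((C : Submodule P R) : Set R))
      (SetLike.coe_injective.comp Units.val_injective)
  have := Fintype.ofFinite R
  have h2 : Nat.card (Set R) = 2 ^ Nat.card R := by
    rw [Nat.card_eq_fintype_card (α := Set R), Fintype.card_set, Nat.card_eq_fintype_card]
  rwa [h2] at h1

/-- if all products of an entry of `g` and an entry of the inverse lie in the subring `P`, then the
entries of `g` lie in `P`, provided the size is `1` modulo a large factorial -/
theorem entries_mem [Finite R] (P : Subring R) (g : Matrix.SpecialLinearGroup ι R)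
    (hprod : ∀ i l j m, (g : Matrix ι ι R) i l *
      ((g⁻¹ : Matrix.SpecialLinearGroup ι R) : Matrix ι ι R) j m ∈ P)
    (k : ℕ) (hk : Fintype.card ι = (2 ^ Nat.card R).factorial * k + 1) :
    ∀ i j, (g : Matrix ι ι R) i j ∈ P := by
  classical
  set h := ((g⁻¹ : Matrix.SpecialLinearGroup ι R) : Matrix ι ι R) with hh
  let C : Submodule P R := Submodule.span P {x | ∃ i j, x = (g : Matrix ι ι R) i j}
  let C' : Submodule P R := Submodule.span P {x | ∃ i j, x = h i j}
  have hgC : ∀ i j, (g : Matrix ι ι R) i j ∈ C := fun i j => Submodule.subset_span ⟨i, j, rfl⟩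
  have hhC : ∀ i j, h i j ∈ C' := fun i j => Submodule.subset_span ⟨i, j, rfl⟩
  have hmem1 : ∀ x : R, x ∈ (1 : Submodule P R) ↔ x ∈ P := by
    intro x
    rw [Submodule.mem_one]
    constructor
    · rintro ⟨y, rfl⟩; exact y.2
    · intro hx; exact ⟨⟨x, hx⟩, rfl⟩
  have hne : Nonempty ι := by
    rw [← Fintype.card_pos_iff, hk]; omega
  obtain ⟨i0⟩ := hne
  have hCC : C * C' = 1 := by
    apply le_antisymm
    · rw [Submodule.span_mul_span, Submodule.span_le]
      rintro _ ⟨x, ⟨i, l, rfl⟩, y, ⟨j, m, rfl⟩, rfl⟩
      exact (hmem1 _).2 (hprod i l j m)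
    · rw [Submodule.one_le]
      have h1 : ((g : Matrix ι ι R) * h) i0 i0 = 1 := by
        rw [hh, ← Matrix.SpecialLinearGroup.coe_mul, mul_inv_cancel,
          Matrix.SpecialLinearGroup.coe_one, Matrix.one_apply_eq]
      rw [← h1, Matrix.mul_apply]
      exact Submodule.sum_mem _ fun l _ => Submodule.mul_mem_mul (hgC _ _) (hhC _ _)
  have hCa : C ^ Fintype.card ι = 1 := by
    have h1 : (1 : Submodule P R) ≤ C ^ Fintype.card ι := by
      rw [Submodule.one_le]
      have := det_mem_pow C (g : Matrix ι ι R) hgC
      rwa [g.det_coe] at this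
    have h2 : (1 : Submodule P R) ≤ C' ^ Fintype.card ι := by
      rw [Submodule.one_le]
      have := det_mem_pow C' h hhC
      rwa [hh, Matrix.SpecialLinearGroup.det_coe] at this
    apply le_antisymm _ h1
    calc C ^ Fintype.card ι = C ^ Fintype.card ι * 1 := (mul_one _).symm
      _ ≤ C ^ Fintype.card ι * C' ^ Fintype.card ι := mul_le_mul' le_rfl h2
      _ = 1 := by rw [← mul_pow, hCC, one_pow]
  have hfin : Finite (Submodule P R) :=
    Finite.of_injective (fun C => (C : Set R)) SetLike.coe_injective
  have hfin2 : Finite (Submodule P R)ˣ := Finite.of_injective _ Units.val_injective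
  let U : (Submodule P R)ˣ := ⟨C, C', hCC, by rw [mul_comm]; exact hCC⟩
  have hU : U ^ (2 ^ Nat.card R).factorial = 1 := by
    obtain ⟨d, hd⟩ := card_units_dvd (R := R) P
    rw [hd, pow_mul, pow_card_eq_one', one_pow]
  have hC1 : C = 1 := by
    have h1 : (U : Submodule P R) ^ ((2 ^ Nat.card R).factorial) = 1 := by
      rw [← Units.val_pow_eq_pow_val, hU, Units.val_one]
    have h2 : C ^ Fintype.card ι = C := by
      rw [hk, pow_succ, pow_mul]
      change ((U : Submodule P R) ^ ((2 ^ Nat.card R).factorial)) ^ k * C = C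
      rw [h1, one_pow, one_mul]
    rw [← h2]; exact hCa
  intro i j
  rw [← hmem1, ← hC1]
  exact hgC i j

end Vale.Agent.P183.H536
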