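import Vale.Agent.P183.R2.H536.SLGen
import Vale.Agent.P183.R2.H536.Span

/-!
# P183: subgroups of `SL` over a finite commutative ring above `SL` of a subring
-/

set_option autoImplicit false

namespace Vale.Agent.P183.H536

open Matrix

variable {ι : Type*} [Fintype ι] [DecidableEq ι] {R : Type*} [CommRing R]

/-- the element `1 + u v` of the special linear group, where `v` kills `u` -/
def tv (u v : ι → R) (h : v ⬝ᵥ u = 0) : Matrix.SpecialLinearGroup ι R :=
  ⟨1 + Matrix.vecMulVec u v, by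
    have := Matrix.det_one_add_replicateCol_mul_replicateRow (ι := Unit) u v
    rw [← Matrix.vecMulVec_eq Unit, h, add_zero] at this
    exact this⟩

theorem coe_tv (u v : ι → R) (h : v ⬝ᵥ u = 0) :
    (tv u v h : Matrix ι ι R) = 1 + Matrix.vecMulVec u v := rfl

theorem tv_apply (u v : ι → R) (h : v ⬝ᵥ u = 0) (i j : ι) :
    (tv u v h : Matrix ι ι R) i j = (if i = j then 1 else 0) + u i * v j := by
  rw [coe_tv, Matrix.add_apply, Matrix.one_apply, Matrix.vecMulVec_apply]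

theorem conj_tv (g : Matrix.SpecialLinearGroup ι R) (u v : ι → R) (h : v ⬝ᵥ u = 0)
    (u' v' : ι → R) (h' : v' ⬝ᵥ u' = 0) (hu : (g : Matrix ι ι R) *ᵥ u = u')
    (hv : v ᵥ* ((g⁻¹ : Matrix.SpecialLinearGroup ι R) : Matrix ι ι R) = v') :
    g * tv u v h * g⁻¹ = tv u' v' h' := by
  apply Subtype.ext
  rw [Matrix.SpecialLinearGroup.coe_mul, Matrix.SpecialLinearGroup.coe_mul, coe_tv, coe_tv,
    Matrix.mul_add, Matrix.add_mul, Matrix.mul_one, ← Matrix.SpecialLinearGroup.coe_mul,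
    mul_inv_cancel, Matrix.SpecialLinearGroup.coe_one, Matrix.mul_vecMulVec,
    Matrix.vecMulVec_mul, hu, hv]

theorem tv_mul_tv (u v u' v' : ι → R) (h : v ⬝ᵥ u = 0) (h' : v' ⬝ᵥ u' = 0) (h'' : v ⬝ᵥ u' = 0)
    (i j : ι) :
    ((tv u v h * tv u' v' h' : Matrix.SpecialLinearGroup ι R) : Matrix ι ι R) i j =
      (if i = j then 1 else 0) + (u i * v j + u' i * v' j) := by
  rw [Matrix.SpecialLinearGroup.coe_mul, coe_tv, coe_tv, Matrix.add_mul, Matrix.mul_add,
    Matrix.mul_one, Matrix.one_mul, Matrix.mul_add, Matrix.mul_one,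
    Matrix.vecMulVec_mul_vecMulVec, h'']
  simp only [Matrix.add_apply, Matrix.one_apply, Matrix.vecMulVec_apply, zero_smul,
    Pi.zero_apply, mul_zero]
  ring

theorem tv_inv (u v : ι → R) (h : v ⬝ᵥ u = 0) (h' : v ⬝ᵥ (-u) = 0) :
    (tv u v h)⁻¹ = tv (-u) v h' := by
  rw [inv_eq_iff_mul_eq_one]
  ext i j
  rw [tv_mul_tv u v (-u) v h h' h', Matrix.SpecialLinearGroup.coe_one, Matrix.one_apply,
    Pi.neg_apply]
  ring

theorem tv_mulVec (u v : ι → R) (h : v ⬝ᵥ u = 0) (a : ι → R) :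
    (tv u v h : Matrix ι ι R) *ᵥ a = a + (v ⬝ᵥ a) • u := by
  rw [coe_tv, Matrix.add_mulVec, Matrix.one_mulVec, Matrix.vecMulVec_mulVec]
  ext i
  simp [mul_comm]

theorem vecMul_tv (u v : ι → R) (h : v ⬝ᵥ u = 0) (b : ι → R) :
    b ᵥ* (tv u v h : Matrix ι ι R) = b + (b ⬝ᵥ u) • v := by
  rw [coe_tv, Matrix.vecMul_add, Matrix.vecMul_one, Matrix.vecMul_vecMulVec]

theorem comm1 (u v a b : ι → R) (h : v ⬝ᵥ u = 0) (h2 : b ⬝ᵥ a = 0) (h3 : b ⬝ᵥ u = 0)
    (h4 : b ⬝ᵥ ((v ⬝ᵥ a) • u) = 0) :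
    tv u v h * tv a b h2 * (tv u v h)⁻¹ * (tv a b h2)⁻¹ = tv ((v ⬝ᵥ a) • u) b h4 := by
  have h5 : b ⬝ᵥ (a + (v ⬝ᵥ a) • u) = 0 := by rw [dotProduct_add, h2, h4, add_zero]
  have h6 : v ⬝ᵥ (-u) = 0 := by rw [dotProduct_neg, h, neg_zero]
  have h7 : b ⬝ᵥ (-a) = 0 := by rw [dotProduct_neg, h2, neg_zero]
  have e1 := conj_tv (tv u v h) a b h2 (a + (v ⬝ᵥ a) • u) b h5 (tv_mulVec _ _ _ _) (by
    rw [tv_inv u v h h6, vecMul_tv, dotProduct_neg, h3, neg_zero, zero_smul, add_zero])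
  rw [e1, tv_inv a b h2 h7]
  ext i j
  rw [tv_mul_tv _ _ _ _ _ _ h7, tv_apply]
  simp only [Pi.add_apply, Pi.smul_apply, smul_eq_mul, Pi.neg_apply]
  ring

theorem comm2 (u v a b : ι → R) (h : v ⬝ᵥ u = 0) (h2 : b ⬝ᵥ a = 0) (h3 : v ⬝ᵥ a = 0)
    (h4 : v ⬝ᵥ ((-(b ⬝ᵥ u)) • a) = 0) :
    tv u v h * tv a b h2 * (tv u v h)⁻¹ * (tv a b h2)⁻¹ = tv ((-(b ⬝ᵥ u)) • a) v h4 := by
  have h5 : (b - (b ⬝ᵥ u) • v) ⬝ᵥ a = 0 := by
    rw [sub_dotProduct, smul_dotProduct, h2, h3, smul_zero, sub_zero]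
  have h6 : v ⬝ᵥ (-u) = 0 := by rw [dotProduct_neg, h, neg_zero]
  have h7 : b ⬝ᵥ (-a) = 0 := by rw [dotProduct_neg, h2, neg_zero]
  have h8 : (b - (b ⬝ᵥ u) • v) ⬝ᵥ (-a) = 0 := by rw [dotProduct_neg, h5, neg_zero]
  have e1 := conj_tv (tv u v h) a b h2 a (b - (b ⬝ᵥ u) • v) h5 (by
    rw [tv_mulVec, h3, zero_smul, add_zero]) (by
    rw [tv_inv u v h h6, vecMul_tv, dotProduct_neg, neg_smul, sub_eq_add_neg])
  rw [e1, tv_inv a b h2 h7]
  ext i j
  rw [tv_mul_tv _ _ _ _ _ _ h8, tv_apply]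
  simp only [Pi.sub_apply, Pi.smul_apply, smul_eq_mul, Pi.neg_apply]
  ring

theorem tv_eq_transvection (i j : ι) (hij : i ≠ j) (c : R)
    (h : (Pi.single j (1 : R) : ι → R) ⬝ᵥ (Pi.single i c : ι → R) = 0) :
    tv (Pi.single i c) (Pi.single j 1) h = Matrix.SpecialLinearGroup.transvection hij c := by
  apply Subtype.ext
  ext k l
  rw [tv_apply, Matrix.SpecialLinearGroup.transvection_coe, Matrix.add_apply, Matrix.one_apply,
    Matrix.single_apply]
  simp only [Pi.single_apply]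
  by_cases h1 : k = i <;> by_cases h2 : l = j
  · subst h1; subst h2; simp
  · subst h1; simp [h2, Ne.symm h2]
  · subst h2; simp [h1, Ne.symm h1]
  · simp [h1, h2, Ne.symm h1]

/-- commutator formula for transvections -/
theorem transvection_comm {i k j : ι} (hik : i ≠ k) (hkj : k ≠ j) (hij : i ≠ j) (a b : R) :
    Matrix.SpecialLinearGroup.transvection hij (a * b)
      = Matrix.SpecialLinearGroup.transvection hik a * Matrix.SpecialLinearGroup.transvection hkj b
        * (Matrix.SpecialLinearGroup.transvection hik a)⁻¹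
        * (Matrix.SpecialLinearGroup.transvection hkj b)⁻¹ := by
  rw [eq_mul_inv_iff_mul_eq, eq_mul_inv_iff_mul_eq]
  apply Subtype.ext
  simp only [Matrix.SpecialLinearGroup.coe_mul, Matrix.SpecialLinearGroup.transvection_coe]
  have h1 : (Matrix.single k j b : Matrix ι ι R) * Matrix.single i k a = 0 :=
    Matrix.single_mul_single_of_ne _ _ _ _ hij.symm _
  have h2 : (Matrix.single i j (a * b) : Matrix ι ι R) * Matrix.single k j b = 0 :=
    Matrix.single_mul_single_of_ne _ _ _ _ hkj.symm _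
  have h3 : (Matrix.single i j (a * b) : Matrix ι ι R) * Matrix.single i k a = 0 :=
    Matrix.single_mul_single_of_ne _ _ _ _ hij.symm _
  have h4 : (Matrix.single i k a : Matrix ι ι R) * Matrix.single k j b =
      Matrix.single i j (a * b) :=
    Matrix.single_mul_single_same _ _ _ _ _
  simp only [Matrix.add_mul, Matrix.mul_add, Matrix.one_mul, Matrix.mul_one, h1, h2, h3, h4,
    Matrix.zero_mul, add_zero, zero_mul]
  abel

/-- all transvections with entry `c` lie in `L` -/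
def Lin (L : Subgroup (Matrix.SpecialLinearGroup ι R)) (c : R) : Prop :=
  ∀ (i j : ι) (h : i ≠ j), Matrix.SpecialLinearGroup.transvection h c ∈ L

theorem Lin.mul {L : Subgroup (Matrix.SpecialLinearGroup ι R)} {a b : R} (ha : Lin L a)
    (hb : Lin L b) (hcard : 3 ≤ Fintype.card ι) : Lin L (a * b) := by
  classical
  intro i j hij
  obtain ⟨k, hk⟩ : ∃ k, k ∉ ({i, j} : Finset ι) := by
    by_contra hcon
    push Not at hcon
    have h1 : Fintype.card ι ≤ ({i, j} : Finset ι).card :=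
      Finset.card_le_card fun k _ => hcon k
    have h2 := Finset.card_le_two (a := i) (b := j)
    omega
  simp only [Finset.mem_insert, Finset.mem_singleton, not_or] at hk
  have hik : i ≠ k := fun e => hk.1 e.symm
  have hkj : k ≠ j := hk.2
  rw [transvection_comm hik hkj hij]
  exact L.mul_mem (L.mul_mem (L.mul_mem (ha _ _ _) (hb _ _ _)) (L.inv_mem (ha _ _ _)))
    (L.inv_mem (hb _ _ _))

theorem spread {L : Subgroup (Matrix.SpecialLinearGroup ι R)} {c : R} (h1 : Lin L 1)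
    (hcard : 5 ≤ Fintype.card ι) (m n : ι) (hmn : m ≠ n)
    (hc : Matrix.SpecialLinearGroup.transvection hmn c ∈ L) : Lin L c := by
  classical
  -- change the column
  have col : ∀ (m n j : ι) (hmn : m ≠ n) (hmj : m ≠ j),
      Matrix.SpecialLinearGroup.transvection hmn c ∈ L →
      Matrix.SpecialLinearGroup.transvection hmj c ∈ L := by
    intro m n j hmn hmj hc
    by_cases hnj : n = j
    · subst hnj; exact hc
    · have := transvection_comm hmn hnj hmj c 1
      rw [mul_one] at this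
      rw [this]
      exact L.mul_mem (L.mul_mem (L.mul_mem hc (h1 _ _ _)) (L.inv_mem hc)) (L.inv_mem (h1 _ _ _))
  have row : ∀ (m n i : ι) (hmn : m ≠ n) (hin : i ≠ n),
      Matrix.SpecialLinearGroup.transvection hmn c ∈ L →
      Matrix.SpecialLinearGroup.transvection hin c ∈ L := by
    intro m n i hmn hin hc
    by_cases him : i = m
    · subst him; exact hc
    · have := transvection_comm him hmn hin 1 c
      rw [one_mul] at this
      rw [this]
      exact L.mul_mem (L.mul_mem (L.mul_mem (h1 _ _ _) hc) (L.inv_mem (h1 _ _ _))) (L.inv_mem hc)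
  intro i j hij
  obtain ⟨k, hk⟩ : ∃ k, k ∉ ({m, n, i, j} : Finset ι) := by
    by_contra hcon
    push Not at hcon
    have h1 : Fintype.card ι ≤ ({m, n, i, j} : Finset ι).card :=
      Finset.card_le_card fun k _ => hcon k
    have h2 := Finset.card_le_four (a := m) (b := n) (c := i) (d := j)
    omega
  simp only [Finset.mem_insert, Finset.mem_singleton, not_or] at hk
  obtain ⟨hkm, hkn, hki, hkj⟩ := hk
  exact row k j i hkj hij (col k n j hkn hkj (row m n k hmn hkn hc))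

/-- if `1 + u v` lies in `L`, the products of the entries lie in `P` -/
theorem iso [Finite R] {L : Subgroup (Matrix.SpecialLinearGroup ι R)} (S : Subring R)
    (hS : ∀ M : Matrix.SpecialLinearGroup ι R, (∀ i j, (M : Matrix ι ι R) i j ∈ S) → M ∈ L)
    (hcard : Nat.card R + 2 ≤ Fintype.card ι) (h5 : 5 ≤ Fintype.card ι)
    (u v : ι → R) (h : v ⬝ᵥ u = 0) (hL : tv u v h ∈ L) (p l : ι) : Lin L (v p * u l) := by
  classical
  have h1 : Lin L 1 := by
    intro i j hij
    apply hS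
    intro k l
    rw [Matrix.SpecialLinearGroup.transvection_coe, Matrix.add_apply, Matrix.one_apply,
      Matrix.single_apply]
    split_ifs <;> simp [S.one_mem, S.zero_mem, add_mem]
  -- the pair of equal coordinates
  obtain ⟨q, q', hqq, hqp, hqp', huq⟩ : ∃ q q' : ι, q ≠ q' ∧ q ≠ p ∧ q' ≠ p ∧ u q = u q' := by
    have := Fintype.ofFinite R
    have hlt : (Finset.univ : Finset R).card < (Finset.univ.erase p).card := by
      rw [Finset.card_erase_of_mem (Finset.mem_univ _), Finset.card_univ, Finset.card_univ,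
        ← Nat.card_eq_fintype_card]
      omega
    obtain ⟨q, hq, q', hq', hne, he⟩ := Finset.exists_ne_map_eq_of_card_lt_of_maps_to hlt
      (f := u) (fun _ _ => Finset.mem_univ _)
    exact ⟨q, q', hne, (Finset.mem_erase.1 hq).1, (Finset.mem_erase.1 hq').1, he⟩
  set c := v p * u l with hc
  -- `m` outside `q, q', l` and `n` outside `m, q, q'`
  have ex : ∀ a b c : ι, ∃ m, m ≠ a ∧ m ≠ b ∧ m ≠ c := by
    intro a b c
    obtain ⟨k, hk⟩ : ∃ k, k ∉ ({a, b, c} : Finset ι) := by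
      by_contra hcon
      push Not at hcon
      have h1 : Fintype.card ι ≤ ({a, b, c} : Finset ι).card :=
        Finset.card_le_card fun k _ => hcon k
      have h2 := Finset.card_le_three (a := a) (b := b) (c := c)
      omega
    simp only [Finset.mem_insert, Finset.mem_singleton, not_or] at hk
    exact ⟨k, hk⟩
  obtain ⟨m, hmq, hmq', hml⟩ := ex q q' l
  obtain ⟨n, hnq, hnq', hnm⟩ := ex q q' m
  -- the functional
  let φ : ι → R := fun k => (if k = q then 1 else 0) - (if k = q' then 1 else 0)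
  have hφm : φ m = 0 := by simp [φ, hmq, hmq']
  have hφp : φ p = 0 := by simp [φ, Ne.symm hqp, Ne.symm hqp']
  have hφq : φ q = 1 := by simp [φ, hqq]
  have hφS : ∀ k, φ k ∈ S := by
    intro k
    simp only [φ]
    split_ifs <;> simp [S.one_mem, S.zero_mem, neg_mem]
  have hdot : ∀ x : ι → R, φ ⬝ᵥ x = x q - x q' := by
    intro x
    simp [φ, dotProduct, sub_mul, Finset.sum_sub_distrib]
  have hφu : φ ⬝ᵥ u = 0 := by rw [hdot, huq, sub_self]
  have hsingle : ∀ (k k' : ι) (x : R), k ≠ k' →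
      (Pi.single k (1 : R) : ι → R) ⬝ᵥ (Pi.single k' x : ι → R) = 0 := by
    intro k k' x hkk
    rw [single_dotProduct, one_mul, Pi.single_eq_of_ne hkk]
  have hmemL : ∀ a b : ι → R, ∀ hab : b ⬝ᵥ a = 0, (∀ k, a k ∈ S) → (∀ k, b k ∈ S) →
      tv a b hab ∈ L := by
    intro a b hab ha hb
    apply hS
    intro i j
    rw [tv_apply]
    apply S.add_mem _ (S.mul_mem (ha i) (hb j))
    split_ifs
    · exact S.one_mem
    · exact S.zero_mem
  have hsS : ∀ k k' : ι, (Pi.single k (1 : R) : ι → R) k' ∈ S := by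
    intro k k'
    rw [Pi.single_apply]
    split_ifs
    · exact S.one_mem
    · exact S.zero_mem
  -- step 1
  have a1 : φ ⬝ᵥ (Pi.single p (1 : R) : ι → R) = 0 := by
    rw [dotProduct_single, hφp, zero_mul]
  have a2 : φ ⬝ᵥ ((v ⬝ᵥ (Pi.single p (1 : R) : ι → R)) • u) = 0 := by
    rw [dotProduct_smul, hφu, smul_zero]
  have s1 : tv ((v ⬝ᵥ (Pi.single p (1 : R) : ι → R)) • u) φ a2 ∈ L := by
    have ht := hmemL (Pi.single p 1) φ a1 (hsS p) hφS
    rw [← comm1 u v (Pi.single p 1) φ h a1 hφu a2]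
    exact L.mul_mem (L.mul_mem (L.mul_mem hL ht) (L.inv_mem hL)) (L.inv_mem ht)
  -- step 2
  set z := (v ⬝ᵥ (Pi.single p (1 : R) : ι → R)) • u with hz
  have b1 : (Pi.single l (1 : R) : ι → R) ⬝ᵥ (Pi.single m (1 : R) : ι → R) = 0 :=
    hsingle l m 1 hml.symm
  have b2 : φ ⬝ᵥ (Pi.single m (1 : R) : ι → R) = 0 := by
    rw [dotProduct_single, hφm, zero_mul]
  have b3 : φ ⬝ᵥ ((-((Pi.single l (1 : R) : ι → R) ⬝ᵥ z)) • (Pi.single m (1 : R) : ι → R)) = 0 := by
    rw [dotProduct_smul, b2, smul_zero]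
  have s2 : tv ((-((Pi.single l (1 : R) : ι → R) ⬝ᵥ z)) • (Pi.single m (1 : R) : ι → R)) φ b3
      ∈ L := by
    have ht := hmemL (Pi.single m 1) (Pi.single l 1) b1 (hsS m) (hsS l)
    rw [← comm2 z φ (Pi.single m 1) (Pi.single l 1) a2 b1 b2 b3]
    exact L.mul_mem (L.mul_mem (L.mul_mem s1 ht) (L.inv_mem s1)) (L.inv_mem ht)
  have hzl : (Pi.single l (1 : R) : ι → R) ⬝ᵥ z = c := by
    rw [single_dotProduct, one_mul, hz, Pi.smul_apply, dotProduct_single, mul_one, smul_eq_mul, hc]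
  set w := (-((Pi.single l (1 : R) : ι → R) ⬝ᵥ z)) • (Pi.single m (1 : R) : ι → R) with hw
  have hw' : w = Pi.single m (-c) := by
    rw [hw, hzl]
    ext k
    rw [Pi.smul_apply, smul_eq_mul, Pi.single_apply, Pi.single_apply]
    split_ifs <;> simp
  -- step 3
  have c1 : (Pi.single n (1 : R) : ι → R) ⬝ᵥ (Pi.single q (1 : R) : ι → R) = 0 :=
    hsingle n q 1 hnq
  have c2 : (Pi.single n (1 : R) : ι → R) ⬝ᵥ w = 0 := by
    rw [hw']; exact hsingle n m _ hnm
  have c4 : φ ⬝ᵥ (Pi.single q (1 : R) : ι → R) = 1 := by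
    rw [dotProduct_single, hφq, mul_one]
  have c3 : (Pi.single n (1 : R) : ι → R) ⬝ᵥ ((φ ⬝ᵥ (Pi.single q (1 : R) : ι → R)) • w) = 0 := by
    rw [dotProduct_smul, c2, smul_zero]
  have s3 : tv ((φ ⬝ᵥ (Pi.single q (1 : R) : ι → R)) • w) (Pi.single n 1) c3 ∈ L := by
    have ht := hmemL (Pi.single q 1) (Pi.single n 1) c1 (hsS q) (hsS n)
    rw [← comm1 w φ (Pi.single q 1) (Pi.single n 1) b3 c1 c2 c3]
    exact L.mul_mem (L.mul_mem (L.mul_mem s2 ht) (L.inv_mem s2)) (L.inv_mem ht)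
  have s4 : Matrix.SpecialLinearGroup.transvection hnm.symm (-c) ∈ L := by
    have c5 : (Pi.single n (1 : R) : ι → R) ⬝ᵥ (Pi.single m (-c) : ι → R) = 0 :=
      hsingle n m _ hnm
    rw [← tv_eq_transvection m n hnm.symm (-c) c5]
    have e : (φ ⬝ᵥ (Pi.single q (1 : R) : ι → R)) • w = Pi.single m (-c) := by
      rw [c4, one_smul, hw']
    simpa only [e] using s3
  have s5 := spread h1 h5 m n hnm.symm s4
  intro i j hij
  have s6 := L.inv_mem (s5 i j hij)
  have d1 : (Pi.single j (1 : R) : ι → R) ⬝ᵥ (Pi.single i (-c) : ι → R) = 0 :=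
    hsingle j i _ hij.symm
  have d2 : (Pi.single j (1 : R) : ι → R) ⬝ᵥ (-(Pi.single i (-c)) : ι → R) = 0 := by
    rw [dotProduct_neg, d1, neg_zero]
  have d3 : (Pi.single j (1 : R) : ι → R) ⬝ᵥ (Pi.single i c : ι → R) = 0 :=
    hsingle j i _ hij.symm
  rw [← tv_eq_transvection i j hij (-c) d1, tv_inv _ _ d1 d2] at s6
  rw [← tv_eq_transvection i j hij c d3]
  have e2 : (-(Pi.single i (-c)) : ι → R) = Pi.single i c := by
    rw [← Pi.single_neg, neg_neg]
  simpa only [e2] using s6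

end Vale.Agent.P183.H536
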