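import Mathlib

/-!
# P183: over a finite commutative ring the special linear group is generated by transvections
-/

set_option autoImplicit false

namespace Vale.Agent.P183.H536

/-- finite commutative rings have stable range one -/
theorem exists_isUnit_add {R : Type*} [CommRing R] [Finite R] (a : R) (I : Ideal R) (b i0 : R)
    (hi0 : i0 ∈ I) (h : b * a + i0 = 1) : ∃ i ∈ I, IsUnit (a + i) := by
  classical
  -- an idempotent power of `a`
  obtain ⟨m, n, hmn, he⟩ := Finite.exists_ne_map_eq_of_infinite (fun k : ℕ => a ^ k)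
  have key : ∃ N : ℕ, 0 < N ∧ a ^ N * a ^ N = a ^ N := by
    wlog hlt : m < n generalizing m n
    · exact this n m hmn.symm he.symm (lt_of_le_of_ne (not_lt.1 hlt) hmn.symm)
    · replace he : a ^ m = a ^ n := he
      -- a ^ m = a ^ (m + d), d > 0
      obtain ⟨d, hd0, hd⟩ : ∃ d, 0 < d ∧ n = m + d := ⟨n - m, by omega, by omega⟩
      subst hd
      have h1 : ∀ k, a ^ (m + k * d) = a ^ m := by
        intro k
        induction k with
        | zero => simp
        | succ k ih =>
          rw [show m + (k + 1) * d = (m + k * d) + d by ring, pow_add, ih, ← pow_add, ← he]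
      refine ⟨(m + 1) * d, by positivity, ?_⟩
      obtain ⟨c, hc⟩ : ∃ c, (m + 1) * d = m + c := ⟨(m + 1) * d - m, by
        have : m + 1 ≤ (m + 1) * d := Nat.le_mul_of_pos_right _ hd0
        omega⟩
      calc a ^ ((m + 1) * d) * a ^ ((m + 1) * d)
          = a ^ (m + (m + 1) * d) * a ^ c := by
            conv_lhs => rw [hc]
            rw [← pow_add, ← pow_add]
            congr 1
            omega
        _ = a ^ m * a ^ c := by rw [h1]
        _ = a ^ ((m + 1) * d) := by rw [hc, pow_add]
  obtain ⟨N, hN, hid⟩ := key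
  refine ⟨(1 - a ^ N) * i0, I.mul_mem_left _ hi0, ?_⟩
  by_contra hnu
  obtain ⟨M, hM, huM⟩ := exists_max_ideal_of_mem_nonunits (mem_nonunits_iff.2 hnu)
  have hi0' : i0 = 1 - b * a := by rw [← h]; ring
  rw [hi0'] at huM
  by_cases hcase : a ^ N ∈ M
  · have ha : a ∈ M := hM.isPrime.mem_of_pow_mem N hcase
    apply hM.ne_top
    rw [Ideal.eq_top_iff_one]
    have : (1 : R) = (a + (1 - a ^ N) * (1 - b * a)) + (-1 + (1 - a ^ N) * b) * a + a ^ N := by ring
    rw [this]
    exact M.add_mem (M.add_mem huM (M.mul_mem_left _ ha)) hcase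
  · have h1 : (1 - a ^ N) ∈ M := by
      have h0 : a ^ N * (1 - a ^ N) ∈ M := by
        rw [mul_sub, hid, mul_one, sub_self]; exact M.zero_mem
      exact (hM.isPrime.mem_or_mem h0).resolve_left hcase
    have ha : a ∈ M := by
      have : a = (a + (1 - a ^ N) * (1 - b * a)) - (1 - b * a) * (1 - a ^ N) := by ring
      rw [this]
      exact M.sub_mem huM (M.mul_mem_left _ h1)
    exact hcase (Ideal.pow_mem_of_mem M ha N hN)

open Matrix

variable {ι : Type*} [Fintype ι] [DecidableEq ι] {R : Type*} [CommRing R]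

/-- column `j` of `M` is the `j`-th standard vector -/
def StdCol (M : Matrix.SpecialLinearGroup ι R) (j : ι) : Prop :=
  ∀ i, (M : Matrix ι ι R) i j = if i = j then 1 else 0

theorem coe_transvection_mul_same {i j : ι} (h : i ≠ j) (a : R) (M : Matrix.SpecialLinearGroup ι R)
    (k : ι) :
    ((Matrix.SpecialLinearGroup.transvection h a * M : Matrix.SpecialLinearGroup ι R) :
      Matrix ι ι R) i k = (M : Matrix ι ι R) i k + a * (M : Matrix ι ι R) j k := by
  rw [Matrix.SpecialLinearGroup.coe_mul]
  exact Matrix.transvection_mul_apply_same i j k a M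

theorem coe_transvection_mul_of_ne {i j : ι} (h : i ≠ j) (a : R) (M : Matrix.SpecialLinearGroup ι R)
    (l k : ι) (hl : l ≠ i) :
    ((Matrix.SpecialLinearGroup.transvection h a * M : Matrix.SpecialLinearGroup ι R) :
      Matrix ι ι R) l k = (M : Matrix ι ι R) l k := by
  rw [Matrix.SpecialLinearGroup.coe_mul]
  exact Matrix.transvection_mul_apply_of_ne i j l k hl a M

theorem stdCol_transvection_mul {i j : ι} (h : i ≠ j) (a : R) (M : Matrix.SpecialLinearGroup ι R)
    (k : ι) (hk : StdCol M k) (hjk : j ≠ k) :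
    StdCol (Matrix.SpecialLinearGroup.transvection h a * M) k := by
  intro l
  by_cases hl : l = i
  · subst hl
    rw [coe_transvection_mul_same, hk l, hk j, if_neg hjk, mul_zero, add_zero]
  · rw [coe_transvection_mul_of_ne h a M l k hl, hk l]

/-- the entries of column `j0` in the rows outside `S` generate the unit ideal -/
theorem exists_sum_eq_one (M : Matrix.SpecialLinearGroup ι R) (S : Finset ι)
    (hS : ∀ j ∈ S, StdCol M j) (j0 : ι) (hj0 : j0 ∉ S) :
    ∃ c : ι → R, ∑ i ∈ Finset.univ \ S, c i * (M : Matrix ι ι R) i j0 = 1 := by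
  classical
  have hinv : ((M⁻¹ : Matrix.SpecialLinearGroup ι R) : Matrix ι ι R) * (M : Matrix ι ι R) = 1 := by
    rw [← Matrix.SpecialLinearGroup.coe_mul, inv_mul_cancel, Matrix.SpecialLinearGroup.coe_one]
  set N := ((M⁻¹ : Matrix.SpecialLinearGroup ι R) : Matrix ι ι R) with hN
  have hz : ∀ i ∈ S, N j0 i = 0 := by
    intro i hi
    have h1 := congrFun (congrFun hinv j0) i
    rw [Matrix.mul_apply, Matrix.one_apply_ne (show j0 ≠ i from fun e => hj0 (by rw [e]; exact hi))]
      at h1
    rw [Finset.sum_eq_single i] at h1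
    · rwa [hS i hi i, if_pos rfl, mul_one] at h1
    · intro k _ hk
      rw [hS i hi k, if_neg hk, mul_zero]
    · intro h; exact absurd (Finset.mem_univ _) h
  have h2 := congrFun (congrFun hinv j0) j0
  rw [Matrix.mul_apply, Matrix.one_apply_eq] at h2
  refine ⟨fun i => N j0 i, Eq.trans ?_ h2⟩
  apply Finset.sum_subset (Finset.subset_univ _)
  intro i _ hi
  have hi' : i ∈ S := by
    by_contra hc
    exact hi (Finset.mem_sdiff.2 ⟨Finset.mem_univ _, hc⟩)
  change N j0 i * (M : Matrix ι ι R) i j0 = 0
  rw [hz i hi', zero_mul]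

theorem entry_eq_one_of_last (M : Matrix.SpecialLinearGroup ι R) (j0 : ι)
    (hS : ∀ j, j ≠ j0 → StdCol M j) : (M : Matrix ι ι R) j0 j0 = 1 := by
  have h1 : (M : Matrix ι ι R) =
      (1 : Matrix ι ι R).updateCol j0 (fun i => (M : Matrix ι ι R) i j0) := by
    ext i j
    by_cases hj : j = j0
    · subst hj; simp
    · rw [Matrix.updateCol_ne hj, hS j hj i, Matrix.one_apply]
  have h2 := M.det_coe
  rw [h1, ← Matrix.cramer_apply, Matrix.cramer_one] at h2
  exact h2

/-- add multiples of the rows in `T` to row `i1` -/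
theorem exists_addRows (H : Subgroup (Matrix.SpecialLinearGroup ι R))
    (hH : ∀ (i j : ι) (h : i ≠ j) (a : R), Matrix.SpecialLinearGroup.transvection h a ∈ H)
    (M : Matrix.SpecialLinearGroup ι R) (S : Finset ι) (hS : ∀ j ∈ S, StdCol M j) (i1 : ι)
    (t : ι → R) (T : Finset ι) (hT : i1 ∉ T) (hTS : ∀ i ∈ T, i ∉ S) (j0 : ι) :
    ∃ h ∈ H, (∀ j ∈ S, StdCol (h * M) j) ∧
      ((h * M : Matrix.SpecialLinearGroup ι R) : Matrix ι ι R) i1 j0 =
        (M : Matrix ι ι R) i1 j0 + ∑ i ∈ T, t i * (M : Matrix ι ι R) i j0 ∧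
      ∀ i, i ≠ i1 → ((h * M : Matrix.SpecialLinearGroup ι R) : Matrix ι ι R) i j0 =
        (M : Matrix ι ι R) i j0 := by
  classical
  induction T using Finset.induction_on with
  | empty =>
    exact ⟨1, H.one_mem, by simpa only [one_mul] using hS, by simp, by simp⟩
  | insert i T hi ih =>
    obtain ⟨h, hh, h2, h3, h4⟩ := ih (fun h => hT (Finset.mem_insert_of_mem h))
      (fun i hi => hTS i (Finset.mem_insert_of_mem hi))
    have hij : i1 ≠ i := fun e => hT (e ▸ Finset.mem_insert_self _ _)
    have hiS : i ∉ S := hTS i (Finset.mem_insert_self _ _)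
    refine ⟨Matrix.SpecialLinearGroup.transvection hij (t i) * h, H.mul_mem (hH _ _ _ _) hh, ?_,
      ?_, ?_⟩
    · intro j hj
      rw [mul_assoc]
      exact stdCol_transvection_mul _ _ _ j (h2 j hj) (fun e => hiS (e ▸ hj))
    · rw [mul_assoc, coe_transvection_mul_same, h3, h4 i hij.symm, Finset.sum_insert hi]
      ring
    · intro l hl
      rw [mul_assoc, coe_transvection_mul_of_ne _ _ _ _ _ hl, h4 l hl]

/-- make the pivot equal to `1` -/
theorem exists_pivot [Finite R] (H : Subgroup (Matrix.SpecialLinearGroup ι R))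
    (hH : ∀ (i j : ι) (h : i ≠ j) (a : R), Matrix.SpecialLinearGroup.transvection h a ∈ H)
    (M : Matrix.SpecialLinearGroup ι R) (S : Finset ι) (hS : ∀ j ∈ S, StdCol M j) (j0 : ι)
    (hj0 : j0 ∉ S) :
    ∃ h ∈ H, (∀ j ∈ S, StdCol (h * M) j) ∧
      ((h * M : Matrix.SpecialLinearGroup ι R) : Matrix ι ι R) j0 j0 = 1 := by
  classical
  by_cases h2 : ∃ i1, i1 ∉ S ∧ i1 ≠ j0
  · obtain ⟨i1, hi1, hne⟩ := h2
    obtain ⟨c, hc⟩ := exists_sum_eq_one M S hS j0 hj0
    have hmem : i1 ∈ Finset.univ \ S := Finset.mem_sdiff.2 ⟨Finset.mem_univ _, hi1⟩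
    set T := (Finset.univ \ S).erase i1 with hT
    rw [← Finset.add_sum_erase _ _ hmem] at hc
    -- the ideal generated by the entries in the rows of `T`
    obtain ⟨x, hx, hu⟩ := exists_isUnit_add ((M : Matrix ι ι R) i1 j0)
      (Ideal.span ((fun i => (M : Matrix ι ι R) i j0) '' (T : Set ι))) (c i1)
      (∑ i ∈ T, c i * (M : Matrix ι ι R) i j0)
      (Ideal.sum_mem _ fun i hi => Ideal.mul_mem_left _ _
        (Ideal.subset_span ⟨i, hi, rfl⟩)) hc
    obtain ⟨t, ht⟩ : ∃ t : ι → R, ∑ i ∈ T, t i * (M : Matrix ι ι R) i j0 = x := by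
      obtain ⟨t, ht⟩ := (Submodule.mem_span_image_finset_iff_exists_fun R).1 hx
      refine ⟨fun i => if h : i ∈ T then t ⟨i, h⟩ else 0, ?_⟩
      rw [← ht, ← Finset.sum_attach T]
      apply Finset.sum_congr rfl
      intro i _
      simp only [smul_eq_mul]
      rw [dif_pos i.2]
    obtain ⟨h, hh, h3, h4, h5⟩ := exists_addRows H hH M S hS i1 t T (Finset.notMem_erase _ _)
      (fun i hi => (Finset.mem_sdiff.1 (Finset.mem_of_mem_erase hi)).2) j0
    rw [ht] at h4
    rw [← h4] at hu
    obtain ⟨v, hv⟩ := hu.exists_left_inv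
    refine ⟨Matrix.SpecialLinearGroup.transvection hne.symm
      ((1 - ((h * M : Matrix.SpecialLinearGroup ι R) : Matrix ι ι R) j0 j0) * v) * h,
      H.mul_mem (hH _ _ _ _) hh, ?_, ?_⟩
    · intro j hj
      rw [mul_assoc]
      exact stdCol_transvection_mul _ _ _ j (h3 j hj) (fun e => hi1 (e ▸ hj))
    · rw [mul_assoc, coe_transvection_mul_same, mul_assoc, hv, mul_one]
      ring
  · push Not at h2
    refine ⟨1, H.one_mem, ?_, ?_⟩
    · simpa only [one_mul] using hS
    · rw [one_mul]
      apply entry_eq_one_of_last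
      intro j hj
      apply hS
      by_contra hj'
      exact hj (h2 j hj')

/-- clear the column -/
theorem exists_clear (H : Subgroup (Matrix.SpecialLinearGroup ι R))
    (hH : ∀ (i j : ι) (h : i ≠ j) (a : R), Matrix.SpecialLinearGroup.transvection h a ∈ H)
    (M : Matrix.SpecialLinearGroup ι R) (S : Finset ι) (hS : ∀ j ∈ S, StdCol M j) (j0 : ι)
    (hj0 : j0 ∉ S)
    (h1 : (M : Matrix ι ι R) j0 j0 = 1) (T : Finset ι) (hT : j0 ∉ T) :
    ∃ h ∈ H, (∀ j ∈ S, StdCol (h * M) j) ∧
      ((h * M : Matrix.SpecialLinearGroup ι R) : Matrix ι ι R) j0 j0 = 1 ∧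
      ∀ i ∈ T, ((h * M : Matrix.SpecialLinearGroup ι R) : Matrix ι ι R) i j0 = 0 := by
  classical
  induction T using Finset.induction_on with
  | empty =>
    exact ⟨1, H.one_mem, by simpa only [one_mul] using hS, by simpa only [one_mul] using h1,
      by simp⟩
  | insert i T hi ih =>
    obtain ⟨h, hh, h2, h3, h4⟩ := ih (fun h => hT (Finset.mem_insert_of_mem h))
    have hij : i ≠ j0 := fun e => hT (e ▸ Finset.mem_insert_self _ _)
    refine ⟨Matrix.SpecialLinearGroup.transvection hij
      (-((h * M : Matrix.SpecialLinearGroup ι R) : Matrix ι ι R) i j0) * h,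
      H.mul_mem (hH _ _ _ _) hh, ?_, ?_, ?_⟩
    · intro j hj
      rw [mul_assoc]
      exact stdCol_transvection_mul _ _ _ j (h2 j hj) (fun e => hj0 (e ▸ hj))
    · rw [mul_assoc, coe_transvection_mul_of_ne _ _ _ _ _ hij.symm, h3]
    · intro l hl
      rw [Finset.mem_insert] at hl
      rw [mul_assoc]
      by_cases hli : l = i
      · subst hli
        rw [coe_transvection_mul_same, h3, mul_one, add_neg_cancel]
      · rw [coe_transvection_mul_of_ne _ _ _ _ _ hli]
        exact h4 l (hl.resolve_left hli)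

/-- A subgroup of `SL` over a finite commutative ring containing all transvections is
everything. -/
theorem eq_top_of_transvections [Finite R] (H : Subgroup (Matrix.SpecialLinearGroup ι R))
    (hH : ∀ (i j : ι) (h : i ≠ j) (a : R), Matrix.SpecialLinearGroup.transvection h a ∈ H) :
    H = ⊤ := by
  classical
  have main : ∀ (n : ℕ) (S : Finset ι), (Finset.univ \ S).card = n →
      ∀ M : Matrix.SpecialLinearGroup ι R, (∀ j ∈ S, StdCol M j) → M ∈ H := by
    intro n
    induction n with
    | zero =>
      intro S hS M hM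
      have hS' : ∀ j, j ∈ S := by
        intro j
        by_contra hj
        have : j ∈ Finset.univ \ S := Finset.mem_sdiff.2 ⟨Finset.mem_univ _, hj⟩
        rw [Finset.card_eq_zero] at hS
        rw [hS] at this
        exact absurd this (Finset.notMem_empty _)
      have : M = 1 := by
        ext i j
        rw [hM j (hS' j) i, Matrix.SpecialLinearGroup.coe_one, Matrix.one_apply]
      rw [this]; exact H.one_mem
    | succ n ih =>
      intro S hS M hM
      have hne : (Finset.univ \ S).Nonempty := by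
        rw [← Finset.card_pos, hS]; omega
      obtain ⟨j0, hj0⟩ := hne
      have hj0' : j0 ∉ S := (Finset.mem_sdiff.1 hj0).2
      obtain ⟨h, hh, h1, h2⟩ := exists_pivot H hH M S hM j0 hj0'
      obtain ⟨g, hg, h3, h4, h5⟩ := exists_clear H hH (h * M) S h1 j0 hj0' h2
        (Finset.univ.erase j0) (Finset.notMem_erase _ _)
      have h6 : g * (h * M) ∈ H := by
        apply ih (insert j0 S)
        · rw [Finset.sdiff_insert, Finset.card_erase_of_mem hj0, hS]; rfl
        · intro j hj
          rcases Finset.mem_insert.1 hj with rfl | hj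
          · intro i
            by_cases hi : i = j
            · subst hi; rw [if_pos rfl, h4]
            · rw [if_neg hi]; exact h5 i (Finset.mem_erase.2 ⟨hi, Finset.mem_univ _⟩)
          · exact h3 j hj
      have : M = h⁻¹ * (g⁻¹ * (g * (h * M))) := by group
      rw [this]
      exact H.mul_mem (H.inv_mem hh) (H.mul_mem (H.inv_mem hg) h6)
  rw [eq_top_iff]
  intro M _
  exact main _ ∅ rfl M (fun j hj => absurd hj (Finset.notMem_empty _))

/-- a subgroup of `SL` over a commutative ring `R` which contains all transvections with entries in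
the finite subring `P` contains all matrices of determinant one with entries in `P` -/
theorem mem_of_entries_mem (P : Subring R) [Finite P]
    (H : Subgroup (Matrix.SpecialLinearGroup ι R))
    (hH : ∀ (i j : ι) (h : i ≠ j) (a : R), a ∈ P →
      Matrix.SpecialLinearGroup.transvection h a ∈ H)
    (M : Matrix.SpecialLinearGroup ι R) (hM : ∀ i j, (M : Matrix ι ι R) i j ∈ P) : M ∈ H := by
  classical
  have h1 : H.comap (Matrix.SpecialLinearGroup.map (n := ι) P.subtype) = ⊤ := by
    apply eq_top_of_transvections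
    intro i j h a
    rw [Subgroup.mem_comap]
    have : Matrix.SpecialLinearGroup.map (n := ι) P.subtype
        (Matrix.SpecialLinearGroup.transvection h a) =
        Matrix.SpecialLinearGroup.transvection h (a : R) := by
      ext k l
      simp [Matrix.SpecialLinearGroup.map_apply_coe, Matrix.SpecialLinearGroup.transvection_coe,
        Matrix.map_apply, Matrix.add_apply, Matrix.one_apply, Matrix.single_apply]
      split_ifs <;> simp
    rw [this]
    exact hH i j h _ a.2
  let M' : Matrix ι ι P := Matrix.of fun i j => ⟨(M : Matrix ι ι R) i j, hM i j⟩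
  have hmap : (P.subtype).mapMatrix M' = (M : Matrix ι ι R) := by
    ext i j
    rfl
  have hdet : M'.det = 1 := by
    apply Subtype.ext
    have h2 := RingHom.map_det P.subtype M'
    rw [hmap, M.det_coe] at h2
    exact h2
  let M'' : Matrix.SpecialLinearGroup ι P := ⟨M', hdet⟩
  have h3 : M'' ∈ H.comap (Matrix.SpecialLinearGroup.map (n := ι) P.subtype) := by
    rw [h1]; trivial
  rw [Subgroup.mem_comap] at h3
  have h4 : Matrix.SpecialLinearGroup.map (n := ι) P.subtype M'' = M := by
    apply Subtype.ext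
    rw [Matrix.SpecialLinearGroup.map_apply_coe]
    exact hmap
  rwa [h4] at h3

end Vale.Agent.P183.H536
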